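import Mathlib

/-!
# The Snaky achievement game (Maker-Breaker) on a board of cells of the square grid

Definitions used by the hand-ins for P062.
-/

namespace Vale.Agent.Lib.P062

/-- A cell of the square grid, indexed by its lower-left corner `(x, y)`. -/
abbrev Cell : Type := ℤ × ℤ

/-- The hexomino Snaky. -/
def snaky : Finset Cell := {(0, 0), (1, 0), (2, 0), (3, 0), (3, 1), (4, 1)}

/-- The action of one of the eight signed permutation matrices on a cell:
`(x, y) ↦ (e x, d y)` if `sw` is false and `(x, y) ↦ (e y, d x)` if `sw` is true,
where the signs `e`, `d` are `1` or `-1`. -/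
def signedPerm (sw : Bool) (e d : ℤ) (p : Cell) : Cell :=
  if sw then (e * p.2, d * p.1) else (e * p.1, d * p.2)

/-- `C` is an allowed copy of Snaky: `C = t + R(S)` for a translation `t` and one of the
eight signed permutation matrices `R`. -/
def IsCopy (C : Finset Cell) : Prop :=
  ∃ (sw : Bool) (e d : ℤ) (t : Cell), (e = 1 ∨ e = -1) ∧ (d = 1 ∨ d = -1) ∧
    C = snaky.image (fun p => t + signedPerm sw e d p)

/-- A Breaker strategy: from the list of all Maker moves made so far (in order, the most
recent one last) it returns the cell that Breaker claims in reply. -/
abbrev BreakerStrategy : Type := List Cell → Cell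

/-- The first `n` moves of Maker, where `m i` is Maker's move number `i` (counting from `0`). -/
def makerMoves (m : ℕ → Cell) (n : ℕ) : List Cell := (List.range n).map m

/-- Breaker's reply to Maker's move number `i` when Breaker follows `β`. -/
def breakerReply (β : BreakerStrategy) (m : ℕ → Cell) (i : ℕ) : Cell :=
  β (makerMoves m (i + 1))

/-- The cells owned by Maker after its first `n` moves. -/
def makerCells (m : ℕ → Cell) (n : ℕ) : Finset Cell := (Finset.range n).image m

/-- The cells owned by Breaker after its first `n` replies. -/
def breakerCells (β : BreakerStrategy) (m : ℕ → Cell) (n : ℕ) : Finset Cell :=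
  (Finset.range n).image (breakerReply β m)

/-- Maker's move number `i` is legal on the board `B`: it is a cell of the board that
neither player has claimed before (Maker moves first, then the players alternate). -/
def MakerLegal (B : Set Cell) (β : BreakerStrategy) (m : ℕ → Cell) (i : ℕ) : Prop :=
  m i ∈ B ∧ m i ∉ makerCells m i ∧ m i ∉ breakerCells β m i

/-- Breaker's reply number `i` is legal on the board `B`: it is a cell of the board that
neither player has claimed before. -/
def BreakerLegal (B : Set Cell) (β : BreakerStrategy) (m : ℕ → Cell) (i : ℕ) : Prop :=
  breakerReply β m i ∈ B ∧ breakerReply β m i ∉ makerCells m (i + 1) ∧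
    breakerReply β m i ∉ breakerCells β m i

/-- Breaker wins the Snaky achievement game on the board `B` (Maker moving first, no
handicap): Breaker has a strategy `β` such that, in every play in which Maker's first `n`
moves are legal, all of Breaker's first `n` replies are legal and Maker does not own all
cells of any allowed copy of Snaky lying inside the board. -/
def BreakerWins (B : Set Cell) : Prop :=
  ∃ β : BreakerStrategy, ∀ (m : ℕ → Cell) (n : ℕ), (∀ i < n, MakerLegal B β m i) →
    (∀ i < n, BreakerLegal B β m i) ∧
      ∀ C : Finset Cell, IsCopy C → (↑C ⊆ B) → ¬ C ⊆ makerCells m n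

/-- The infinite strip of width `w`: the cells `(x, y)` with `0 ≤ y < w`. -/
def strip (w : ℤ) : Set Cell := {p | 0 ≤ p.2 ∧ p.2 < w}

end Vale.Agent.Lib.P062
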