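import Vale.Agent.Lib.P062.Game

/-!
# Breaker wins Snaky on the strip of width five: a pairing strategy of period four
-/

namespace Vale.Agent.Lib.P062

theorem mem_strip {w : ℤ} {p : Cell} : p ∈ strip w ↔ 0 ≤ p.2 ∧ p.2 < w := Iff.rfl

/-- The pairing on the strip of width five (period four in `x`). -/
def partner (p : Cell) : Cell :=
  if p.1 % 4 = 1 then (p.1 + 1, p.2)
  else if p.1 % 4 = 2 then (p.1 - 1, p.2)
  else if p.2 = 0 then (p.1, 1)
  else if p.2 = 1 then (p.1, 0)
  else if p.2 = 3 then (p.1, 4)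
  else if p.2 = 4 then (p.1, 3)
  else if p.1 % 4 = 0 then (p.1 - 1, p.2)
  else (p.1 + 1, p.2)

theorem partner_add (x y k : ℤ) :
    partner (x + 4 * k, y) = ((partner (x, y)).1 + 4 * k, (partner (x, y)).2) := by
  unfold partner
  have h : (x + 4 * k) % 4 = x % 4 := Int.add_mul_emod_self_left x 4 k
  dsimp only
  rw [h]
  split_ifs <;> refine Prod.ext ?_ ?_ <;> dsimp only <;> omega

theorem partner_mem_strip {p : Cell} (hp : p ∈ strip 5) : partner p ∈ strip 5 := by
  obtain ⟨x, y⟩ := p
  rw [mem_strip] at hp ⊢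
  unfold partner
  dsimp only at hp ⊢
  split_ifs <;> dsimp only <;> omega

theorem partner_ne {p : Cell} (hp : p ∈ strip 5) : partner p ≠ p := by
  obtain ⟨x, y⟩ := p
  rw [mem_strip] at hp
  unfold partner
  dsimp only at hp ⊢
  split_ifs <;> simp only [ne_eq, Prod.mk.injEq] <;> omega

theorem partner_partner_small : ∀ r ∈ ([0, 1, 2, 3] : List ℤ), ∀ y ∈ ([0, 1, 2, 3, 4] : List ℤ),
    partner (partner (r, y)) = (r, y) := by decide

theorem mod_four_mem (x : ℤ) : x % 4 ∈ ([0, 1, 2, 3] : List ℤ) := by
  have : x % 4 = 0 ∨ x % 4 = 1 ∨ x % 4 = 2 ∨ x % 4 = 3 := by omega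
  simpa using this

theorem row_mem {y : ℤ} (h0 : 0 ≤ y) (h5 : y < 5) : y ∈ ([0, 1, 2, 3, 4] : List ℤ) := by
  have : y = 0 ∨ y = 1 ∨ y = 2 ∨ y = 3 ∨ y = 4 := by omega
  simpa using this

theorem partner_partner {p : Cell} (hp : p ∈ strip 5) : partner (partner p) = p := by
  obtain ⟨x, y⟩ := p
  rw [mem_strip] at hp
  dsimp only at hp
  have hx : x = x % 4 + 4 * (x / 4) := (Int.emod_add_mul_ediv x 4).symm
  have key := partner_partner_small (x % 4) (mod_four_mem x) y (row_mem hp.1 hp.2)
  rw [hx, partner_add, partner_add, key]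

/-- The six cells of Snaky as a list. -/
def snakyList : List Cell := [(0, 0), (1, 0), (2, 0), (3, 0), (3, 1), (4, 1)]

theorem mem_snaky {p : Cell} : p ∈ snaky ↔ p ∈ snakyList := by
  simp [snaky, snakyList]

/-- A sign, coded by a Boolean. -/
def sgn (b : Bool) : ℤ := if b then -1 else 1

/-- The cell of the copy with translation `(a, b)` and the given signed permutation that
corresponds to the cell `p` of Snaky. -/
def copyCell (sw eb db : Bool) (a b : ℤ) (p : Cell) : Cell :=
  (a, b) + signedPerm sw (sgn eb) (sgn db) p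

set_option maxRecDepth 100000 in
theorem pair_in_copy_small : ∀ r ∈ ([0, 1, 2, 3] : List ℤ), ∀ b ∈ ([0, 1, 2, 3, 4] : List ℤ),
    ∀ sw eb db : Bool,
    (∀ p ∈ snakyList, 0 ≤ (copyCell sw eb db r b p).2 ∧ (copyCell sw eb db r b p).2 < 5) →
    ∃ p ∈ snakyList, ∃ q ∈ snakyList,
      partner (copyCell sw eb db r b p) = copyCell sw eb db r b q := by decide

theorem copyCell_shift (sw eb db : Bool) (a b k : ℤ) (p : Cell) :
    copyCell sw eb db (a + 4 * k) b p =
      ((copyCell sw eb db a b p).1 + 4 * k, (copyCell sw eb db a b p).2) := by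
  unfold copyCell
  refine Prod.ext ?_ ?_
  · simp only [Prod.fst_add]
    ring
  · simp only [Prod.snd_add]

theorem pair_in_copy (sw eb db : Bool) (a b : ℤ)
    (h : ∀ p ∈ snakyList, copyCell sw eb db a b p ∈ strip 5) :
    ∃ p ∈ snakyList, ∃ q ∈ snakyList,
      partner (copyCell sw eb db a b p) = copyCell sw eb db a b q := by
  have ha : a = a % 4 + 4 * (a / 4) := (Int.emod_add_mul_ediv a 4).symm
  have hb : b ∈ ([0, 1, 2, 3, 4] : List ℤ) := by
    have h0 := h (0, 0) (by simp [snakyList])
    rw [mem_strip] at h0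
    have e : (copyCell sw eb db a b (0, 0)).2 = b := by
      unfold copyCell signedPerm
      split_ifs <;> simp
    rw [e] at h0
    exact row_mem h0.1 h0.2
  have hfit : ∀ p ∈ snakyList, 0 ≤ (copyCell sw eb db (a % 4) b p).2 ∧
      (copyCell sw eb db (a % 4) b p).2 < 5 := by
    intro p hp
    have := h p hp
    rw [mem_strip, ha, copyCell_shift] at this
    exact this
  obtain ⟨p, hp, q, hq, hpq⟩ := pair_in_copy_small (a % 4) (mod_four_mem a) b hb sw eb db hfit
  refine ⟨p, hp, q, hq, ?_⟩
  rw [ha, copyCell_shift, copyCell_shift, partner_add, hpq]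

theorem sgn_cases {e : ℤ} (h : e = 1 ∨ e = -1) : ∃ b : Bool, e = sgn b := by
  rcases h with rfl | rfl
  · exact ⟨false, rfl⟩
  · exact ⟨true, rfl⟩

/-- Every allowed copy of Snaky inside the strip of width five contains a pair of the pairing. -/
theorem copy_contains_pair {C : Finset Cell} (hC : IsCopy C) (hB : (↑C : Set Cell) ⊆ strip 5) :
    ∃ c ∈ C, partner c ∈ C := by
  obtain ⟨sw, e, d, t, he, hd, rfl⟩ := hC
  obtain ⟨eb, rfl⟩ := sgn_cases he
  obtain ⟨db, rfl⟩ := sgn_cases hd
  obtain ⟨a, b⟩ := t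
  have hmem : ∀ p ∈ snakyList, copyCell sw eb db a b p ∈
      snaky.image (fun p => (a, b) + signedPerm sw (sgn eb) (sgn db) p) := by
    intro p hp
    exact Finset.mem_image.mpr ⟨p, mem_snaky.mpr hp, rfl⟩
  have h : ∀ p ∈ snakyList, copyCell sw eb db a b p ∈ strip 5 := fun p hp =>
    hB (Finset.mem_coe.mpr (hmem p hp))
  obtain ⟨p, hp, q, hq, hpq⟩ := pair_in_copy sw eb db a b h
  exact ⟨_, hmem p hp, by rw [hpq]; exact hmem q hq⟩

/-- Breaker's pairing strategy: reply with the partner of Maker's last move. -/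
def pairingStrategy : BreakerStrategy := fun l => partner (l.getLastD (0, 0))

theorem breakerReply_pairing (m : ℕ → Cell) (i : ℕ) :
    breakerReply pairingStrategy m i = partner (m i) := by
  simp [breakerReply, pairingStrategy, makerMoves, List.range_succ]

theorem breakerWins_strip_five : BreakerWins (strip 5) := by
  refine ⟨pairingStrategy, fun m n hM => ?_⟩
  have hMB : ∀ i < n, m i ∈ strip 5 := fun i hi => (hM i hi).1
  -- Maker never plays the partner of an earlier or later Maker move
  have key : ∀ i < n, ∀ j < n, m j ≠ partner (m i) := by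
    intro i hi j hj hEq
    rcases lt_trichotomy i j with hij | hij | hij
    · -- j later than i: m j = reply i, already claimed by Breaker
      have := (hM j hj).2.2
      apply this
      refine Finset.mem_image.mpr ⟨i, Finset.mem_range.mpr hij, ?_⟩
      rw [breakerReply_pairing, hEq]
    · subst hij
      exact partner_ne (hMB i hi) hEq.symm
    · -- i later than j: m i = partner (m j) = reply j
      have := (hM i hi).2.2
      apply this
      refine Finset.mem_image.mpr ⟨j, Finset.mem_range.mpr hij, ?_⟩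
      rw [breakerReply_pairing, hEq, partner_partner (hMB i hi)]
  refine ⟨fun i hi => ⟨?_, ?_, ?_⟩, ?_⟩
  · rw [breakerReply_pairing]
    exact partner_mem_strip (hMB i hi)
  · rw [breakerReply_pairing]
    intro hmem
    obtain ⟨j, hj, hjE⟩ := Finset.mem_image.mp hmem
    have hj' : j < n := lt_of_lt_of_le (Finset.mem_range.mp hj) hi
    exact key i hi j hj' hjE
  · rw [breakerReply_pairing]
    intro hmem
    obtain ⟨j, hj, hjE⟩ := Finset.mem_image.mp hmem
    have hjlt : j < i := Finset.mem_range.mp hj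
    rw [breakerReply_pairing] at hjE
    have hinj : m j = m i := by
      have h1 := congrArg partner hjE
      rwa [partner_partner (hMB j (lt_trans hjlt hi)), partner_partner (hMB i hi)] at h1
    apply (hM i hi).2.1
    exact Finset.mem_image.mpr ⟨j, hj, hinj⟩
  · intro C hC hB hsub
    obtain ⟨c, hc, hpc⟩ := copy_contains_pair hC hB
    obtain ⟨i, hi, rfl⟩ := Finset.mem_image.mp (hsub hc)
    obtain ⟨j, hj, hjE⟩ := Finset.mem_image.mp (hsub hpc)
    exact key i (Finset.mem_range.mp hi) j (Finset.mem_range.mp hj) hjE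

end Vale.Agent.Lib.P062
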